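import Mathlib

namespace Vale.Agent.P268H

open Filter Topology Asymptotics

/-- The order at `0`: the least degree `k` whose homogeneous Taylor component
`y ↦ D^k f(0)(y, …, y) / k!` is not identically zero. -/
noncomputable def ord {N : ℕ} (f : (Fin N → ℂ) → ℂ) : ℕ :=
  sInf {k | ∃ y, iteratedFDeriv ℂ k f 0 (fun _ => y) ≠ 0}

theorem coeff {N : ℕ} {f : (Fin N → ℂ) → ℂ} {p : FormalMultilinearSeries ℂ (Fin N → ℂ) ℂ}
    (h : HasFPowerSeriesAt f p 0) (k : ℕ)
    (y : Fin N → ℂ) : iteratedFDeriv ℂ k f 0 (fun _ => y) = 0 ↔ p k (fun _ => y) = 0 := by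
  obtain ⟨r, hr⟩ := h
  rw [← hr.factorial_smul y k, nsmul_eq_mul, mul_eq_zero, or_iff_right]
  exact_mod_cast k.factorial_ne_zero

theorem low {N : ℕ} {f : (Fin N → ℂ) → ℂ} {p : FormalMultilinearSeries ℂ (Fin N → ℂ) ℂ}
    (h : HasFPowerSeriesAt f p 0) {k : ℕ}
    (hk : k < ord f) (y : Fin N → ℂ) : p k (fun _ => y) = 0 := by
  have := Nat.notMem_of_lt_sInf hk
  simp only [Set.mem_setOf_eq, not_exists, not_not] at this
  exact (coeff h k y).1 (this y)

theorem upper {N : ℕ} {f : (Fin N → ℂ) → ℂ} (hf : AnalyticAt ℂ f 0) :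
    f =O[𝓝 0] fun y => ‖y‖ ^ ord f := by
  obtain ⟨p, h⟩ := hf
  refine (h.isBigO_sub_partialSum_pow (ord f)).congr_left fun y => ?_
  rw [zero_add, FormalMultilinearSeries.partialSum,
    Finset.sum_eq_zero fun k hk => low h (Finset.mem_range.1 hk) y, sub_zero]

theorem exists_top {N : ℕ} {f : (Fin N → ℂ) → ℂ} {p : FormalMultilinearSeries ℂ (Fin N → ℂ) ℂ}
    (h : HasFPowerSeriesAt f p 0)
    (h0 : ¬ f =ᶠ[𝓝 0] 0) : ∃ y, p (ord f) (fun _ => y) ≠ 0 := by
  have hne : {k | ∃ y, iteratedFDeriv ℂ k f 0 (fun _ => y) ≠ 0}.Nonempty := by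
    by_contra hc
    apply h0
    filter_upwards [h.eventually_hasSum] with y hy
    have : ∀ k, p k (fun _ => y) = 0 := fun k => (coeff h k y).1 (by
      by_contra hk
      exact hc ⟨k, y, hk⟩)
    simp only [this, zero_add] at hy
    exact hy.unique hasSum_zero
  obtain ⟨y, hy⟩ := Nat.sInf_mem hne
  exact ⟨y, fun hh => hy ((coeff h _ y).2 hh)⟩

theorem lower {N : ℕ} {f : (Fin N → ℂ) → ℂ} (hf : AnalyticAt ℂ f 0) (h0 : ¬ f =ᶠ[𝓝 0] 0)
    {s : ℝ} (hs : f =O[𝓝 0] fun y => ‖y‖ ^ s) : s ≤ ord f := by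
  by_contra hlt
  push Not at hlt
  obtain ⟨p, h⟩ := hf
  obtain ⟨v, hv⟩ := exists_top h h0
  set m := ord f with hm
  have ht : Tendsto (fun t : ℝ => (t : ℂ) • v) (𝓝[>] 0) (𝓝 0) := by
    have : Continuous fun t : ℝ => (t : ℂ) • v := by fun_prop
    simpa using (this.tendsto 0).mono_left nhdsWithin_le_nhds
  have small : ∀ q : ℝ, (m : ℝ) < q →
      (fun t : ℝ => ‖(t : ℂ) • v‖ ^ q) =o[𝓝[>] 0] fun t : ℝ => t ^ m := by
    intro q hq
    refine (isLittleO_iff_tendsto' ?_).2 ?_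
    · filter_upwards [self_mem_nhdsWithin] with t ht h
      exact absurd h (pow_pos ht m).ne'
    · have h1 : Tendsto (fun t : ℝ => t ^ (q - m) * ‖v‖ ^ q) (𝓝[>] 0) (𝓝 0) := by
        have := ((Real.continuousAt_rpow_const 0 (q - m) (Or.inr (by linarith))).tendsto.mono_left
          (nhdsWithin_le_nhds (s := Set.Ioi 0))).mul_const (‖v‖ ^ q)
        rwa [Real.zero_rpow (by linarith), zero_mul] at this
      refine h1.congr' ?_
      filter_upwards [self_mem_nhdsWithin] with t ht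
      have ht' : 0 < t := ht
      rw [norm_smul, Complex.norm_real, Real.norm_of_nonneg ht'.le,
        Real.mul_rpow ht'.le (norm_nonneg _), Real.rpow_sub ht', Real.rpow_natCast]
      ring
  have a1 := (hs.comp_tendsto ht).trans_isLittleO (small s hlt)
  have a2 := ((h.isBigO_sub_partialSum_pow (m + 1)).comp_tendsto ht).trans_isLittleO
    ((small ((m + 1 : ℕ) : ℝ) (by push_cast; linarith)).congr_left fun t => Real.rpow_natCast _ _)
  have a3 := a1.sub a2
  have a4 : (fun t : ℝ => (t : ℂ) ^ m * p m (fun _ => v)) =o[𝓝[>] 0] fun t : ℝ => t ^ m := by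
    refine a3.congr_left fun t => ?_
    simp only [Function.comp_apply, zero_add, sub_sub_cancel, FormalMultilinearSeries.partialSum,
      Finset.sum_range_succ]
    rw [Finset.sum_eq_zero fun k hk => low h (Finset.mem_range.1 hk) _, zero_add]
    have := (p m).map_smul_univ (fun _ => (t : ℂ)) (fun _ => v)
    simpa using this
  have hc : 0 < ‖p m (fun _ => v)‖ := norm_pos_iff.2 hv
  obtain ⟨t, h1, h2⟩ := ((a4.def (half_pos hc)).and self_mem_nhdsWithin).exists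
  have h3 : 0 < t := h2
  rw [norm_mul, norm_pow, Complex.norm_real, norm_pow] at h1
  have h4 : 0 < ‖t‖ ^ m := pow_pos (norm_pos_iff.2 h3.ne') m
  nlinarith

theorem step {N : ℕ} {f g : (Fin N → ℂ) → ℂ} (hf : AnalyticAt ℂ f 0) (hg : AnalyticAt ℂ g 0)
    (h0 : ¬ f =ᶠ[𝓝 0] 0) {φ : (Fin N → ℂ) → Fin N → ℂ} (hφ : Tendsto φ (𝓝 0) (𝓝 0))
    {α a : ℝ} (ha : 0 ≤ a) (h1 : φ =O[𝓝 0] fun x => ‖x‖ ^ α)
    (h2 : f =O[𝓝 0] fun x => ‖g (φ x)‖ ^ a) : α * a * ord g ≤ ord f := by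
  refine lower hf h0 (h2.trans ?_)
  have b1 : (fun x => ‖g (φ x)‖) =O[𝓝 0] fun x => (‖x‖ ^ α) ^ ord g :=
    (((upper hg).comp_tendsto hφ).trans (h1.norm_left.pow _)).norm_left
  refine (b1.rpow ha (Eventually.of_forall fun x => by positivity)).congr_right fun x => ?_
  rw [← Real.rpow_natCast, ← Real.rpow_mul (norm_nonneg _), ← Real.rpow_mul (norm_nonneg _)]
  congr 1
  ring

end Vale.Agent.P268H
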