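import Vale.Agent.P268H.Core

namespace Vale.Agent.P268H

open Filter Topology Asymptotics

/-- Along one sequence of points `t k • v → 0` on a real ray whose direction `v` is not a zero of
the initial form of `f`: `|φ x| = O(|x|^α)` and `|f x| = O(|g (φ x)|^a)`. -/
def RayBound {N : ℕ} (f g : (Fin N → ℂ) → ℂ) (φ : (Fin N → ℂ) → Fin N → ℂ) (α a : ℝ) : Prop :=
  ∃ (v : Fin N → ℂ) (t : ℕ → ℝ), iteratedFDeriv ℂ (ord f) f 0 (fun _ => v) ≠ 0 ∧
    (∀ k, 0 < t k) ∧ Tendsto t atTop (𝓝 0) ∧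
    (fun k => φ ((t k : ℂ) • v)) =O[atTop] (fun k => t k ^ α) ∧
    (fun k => f ((t k : ℂ) • v)) =O[atTop] fun k => ‖g (φ ((t k : ℂ) • v))‖ ^ a

theorem lower_seq {N : ℕ} {f : (Fin N → ℂ) → ℂ} (hf : AnalyticAt ℂ f 0) {v : Fin N → ℂ}
    (hv0 : iteratedFDeriv ℂ (ord f) f 0 (fun _ => v) ≠ 0) {t : ℕ → ℝ} (tp : ∀ k, 0 < t k)
    (tt : Tendsto t atTop (𝓝 0)) {s : ℝ}
    (hs : (fun k => f ((t k : ℂ) • v)) =O[atTop] fun k => t k ^ s) : s ≤ ord f := by
  by_contra hlt
  push Not at hlt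
  obtain ⟨p, h⟩ := hf
  have hv : p (ord f) (fun _ => v) ≠ 0 := fun hh => hv0 ((coeff h _ v).2 hh)
  set m := ord f with hm
  have ht : Tendsto (fun k => (t k : ℂ) • v) atTop (𝓝 0) := by
    have : Continuous fun t : ℝ => (t : ℂ) • v := by fun_prop
    simpa [Function.comp_def] using (this.tendsto 0).comp tt
  have small : ∀ q : ℝ, (m : ℝ) < q → (fun k => t k ^ q) =o[atTop] fun k => t k ^ m := by
    intro q hq
    refine (isLittleO_iff_tendsto fun k h => absurd h (pow_pos (tp k) m).ne').2 ?_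
    have := (Real.continuousAt_rpow_const 0 (q - m) (Or.inr (by linarith))).tendsto.comp tt
    rw [Real.zero_rpow (by linarith)] at this
    refine this.congr fun k => ?_
    rw [Function.comp_apply, Real.rpow_sub (tp k), Real.rpow_natCast]
  have a1 := hs.trans_isLittleO (small s hlt)
  have b0 : (fun k => ‖(t k : ℂ) • v‖ ^ (m + 1)) =O[atTop] fun k => t k ^ ((m + 1 : ℕ) : ℝ) := by
    refine IsBigO.of_bound (‖v‖ ^ (m + 1)) (Eventually.of_forall fun k => le_of_eq ?_)
    rw [Real.rpow_natCast, norm_pow, norm_pow, norm_norm, norm_smul, Complex.norm_real, mul_pow,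
      mul_comm]
  have a2 := (((h.isBigO_sub_partialSum_pow (m + 1)).comp_tendsto ht).trans b0).trans_isLittleO
    (small ((m + 1 : ℕ) : ℝ) (by push_cast; linarith))
  have a3 := a1.sub a2
  have a4 : (fun k => (t k : ℂ) ^ m * p m (fun _ => v)) =o[atTop] fun k => t k ^ m := by
    refine a3.congr_left fun k => ?_
    simp only [Function.comp_apply, zero_add, sub_sub_cancel, FormalMultilinearSeries.partialSum,
      Finset.sum_range_succ]
    rw [Finset.sum_eq_zero fun k hk => low h (Finset.mem_range.1 hk) _, zero_add]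
    have := (p m).map_smul_univ (fun _ => (t k : ℂ)) (fun _ => v)
    simpa using this
  have hc : 0 < ‖p m (fun _ => v)‖ := norm_pos_iff.2 hv
  obtain ⟨k, h1⟩ := (a4.def (half_pos hc)).exists
  rw [norm_mul, norm_pow, Complex.norm_real, norm_pow] at h1
  have h4 : 0 < ‖t k‖ ^ m := pow_pos (norm_pos_iff.2 (tp k).ne') m
  nlinarith

theorem step_seq {N : ℕ} {f g : (Fin N → ℂ) → ℂ} (hf : AnalyticAt ℂ f 0) (hg : AnalyticAt ℂ g 0)
    {φ : (Fin N → ℂ) → Fin N → ℂ} (hφ : Tendsto φ (𝓝 0) (𝓝 0)) {α a : ℝ} (ha : 0 ≤ a)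
    (h : RayBound f g φ α a) : α * a * ord g ≤ ord f := by
  obtain ⟨v, t, hv, tp, tt, h1, h2⟩ := h
  refine lower_seq hf hv tp tt (h2.trans ?_)
  have ht : Tendsto (fun k => (t k : ℂ) • v) atTop (𝓝 0) := by
    have : Continuous fun t : ℝ => (t : ℂ) • v := by fun_prop
    simpa [Function.comp_def] using (this.tendsto 0).comp tt
  have b1 : (fun k => ‖g (φ ((t k : ℂ) • v))‖) =O[atTop] fun k => (t k ^ α) ^ ord g :=
    (((upper hg).comp_tendsto (hφ.comp ht)).trans (h1.norm_left.pow _)).norm_left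
  refine (b1.rpow ha (Eventually.of_forall fun k => ?_)).congr_right fun k => ?_
  · exact pow_nonneg (Real.rpow_nonneg (tp k).le _) _
  · rw [← Real.rpow_natCast, ← Real.rpow_mul (tp k).le, ← Real.rpow_mul (tp k).le]
    congr 1
    ring

end Vale.Agent.P268H
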